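import Vale.Agent.P189.Main

/-! Negative answer to Gaboriau's fixed price problem: a countable group with two essentially free
p.m.p. actions on standard probability spaces whose costs differ. -/

namespace Vale.Agent.Results.P189.FixedPriceFails

open MeasureTheory Vale.Agent.P189

theorem result : ∃ (Γ : Type) (_ : Group Γ) (_ : Countable Γ)
    (X : Type) (_ : MeasurableSpace X) (_ : StandardBorelSpace X) (μ : Measure X)
    (_ : IsProbabilityMeasure μ) (a : PMPAction Γ X μ)
    (Y : Type) (_ : MeasurableSpace Y) (_ : StandardBorelSpace Y) (ν : Measure Y)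
    (_ : IsProbabilityMeasure ν) (b : PMPAction Γ Y ν),
    a.EssFree ∧ b.EssFree ∧ a.cost < 2 ∧ 2 ≤ b.cost :=
  main

end Vale.Agent.Results.P189.FixedPriceFails
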